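/-
helper23 -- S0356 squad (track D), package S1 (hedge copy): compactness / convexity of the corner
simplex, its facets and sweeps.  Imports only the squad's definitions.  Sorry-free.
-/
import Crest.Agent.Helper28.S0356.Defs

set_option autoImplicit false
open MeasureTheory
open scoped ENNReal

namespace Crest.Agent.Helper23.S0356.Body

open Crest.Agent.Helper28.S0355 (sweep)
open Crest.Agent.Helper28.S0356

theorem isCompact_Tset (ι : Type) [Fintype ι] : IsCompact (Tset ι) := by
  have hclosed : IsClosed (Tset ι) := by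
    have h : Tset ι = (⋂ i, {x : ι → ℝ | 0 ≤ x i}) ∩ {x | ∑ i, x i ≤ 1} := by
      ext x
      simp [Tset]
    rw [h]
    exact (isClosed_iInter fun i => isClosed_le continuous_const (continuous_apply i)).inter
      (isClosed_le (continuous_finsetSum _ fun i _ => continuous_apply i) continuous_const)
  refine (isCompact_Icc (a := (0 : ι → ℝ)) (b := 1)).of_isClosed_subset hclosed ?_
  intro x hx
  refine ⟨fun i => hx.1 i, fun i => ?_⟩
  calc x i ≤ ∑ j, x j := Finset.single_le_sum (fun j _ => hx.1 j) (Finset.mem_univ i)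
    _ ≤ 1 := hx.2

theorem convex_Tset (ι : Type) [Fintype ι] : Convex ℝ (Tset ι) := by
  intro x hx y hy s t hs ht hst
  refine ⟨fun i => ?_, ?_⟩
  · have h1 := hx.1 i
    have h2 := hy.1 i
    simp only [Pi.add_apply, Pi.smul_apply, smul_eq_mul]
    positivity
  · have h1 := hx.2
    have h2 := hy.2
    have e : ∑ i, (s • x + t • y) i = s * ∑ i, x i + t * ∑ i, y i := by
      simp only [Pi.add_apply, Pi.smul_apply, smul_eq_mul, Finset.sum_add_distrib,
        Finset.mul_sum]
    rw [e]
    nlinarith

theorem isCompact_facetS {n : ℕ} (k : Fin n ⊕ Unit) : IsCompact (facetS k) := by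
  have hcont : Continuous (lcS k : (Fin n → ℝ) → ℝ) := by
    cases k with
    | inl j => exact (continuous_apply j).neg
    | inr _ => exact continuous_finsetSum _ fun i _ => continuous_apply i
  have hclosed : IsClosed (facetS k) := by
    have h : facetS k = Tset (Fin n) ∩ (lcS k) ⁻¹' {bcS k} := by
      ext x
      rfl
    rw [h]
    exact (isCompact_Tset _).isClosed.inter (isClosed_singleton.preimage hcont)
  exact (isCompact_Tset (Fin n)).of_isClosed_subset hclosed (fun x hx => hx.1)

/-- `sweep C u` is the image of `[0,1] × C` under `(t, z) ↦ z + t • u`. -/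
theorem isCompact_sweep {V : Type*} [NormedAddCommGroup V] [NormedSpace ℝ V] {C : Set V}
    (hC : IsCompact C) (u : V) : IsCompact (sweep C u) := by
  have h : sweep C u = (fun p : ℝ × V => p.2 + p.1 • u) '' (Set.Icc (0 : ℝ) 1 ×ˢ C) := by
    ext x
    constructor
    · rintro ⟨t, ht, hx⟩
      exact ⟨(t, x - t • u), ⟨ht, hx⟩, by simp⟩
    · rintro ⟨⟨t, c⟩, ⟨ht, hc⟩, rfl⟩
      exact ⟨t, ht, by simpa using hc⟩
  rw [h]
  exact (isCompact_Icc.prod hC).image (by fun_prop)

end Crest.Agent.Helper23.S0356.Body
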