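/-
helper23 -- S0356 squad (track D), package CH (hedge copy): the corner simplex is the convex hull
of its vertices; a convex set of positive volume has nonempty interior.
Imports only the squad's definitions.  Sorry-free.
-/
import Crest.Agent.Helper28.S0356.Defs

set_option autoImplicit false
open MeasureTheory
open scoped ENNReal

namespace Crest.Agent.Helper23.S0356

open Crest.Agent.Helper28.S0356

private theorem convex_Tset' (a : ℕ) : Convex ℝ (Tset (Fin a)) := by
  intro x hx y hy s t hs ht hst
  refine ⟨fun i => ?_, ?_⟩
  · have h1 := hx.1 i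
    have h2 := hy.1 i
    simp only [Pi.add_apply, Pi.smul_apply, smul_eq_mul]
    positivity
  · have h1 := hx.2
    have h2 := hy.2
    have e : ∑ i, (s • x + t • y) i = s * ∑ i, x i + t * ∑ i, y i := by
      simp only [Pi.add_apply, Pi.smul_apply, smul_eq_mul, Finset.sum_add_distrib,
        Finset.mul_sum]
    rw [e]
    nlinarith

theorem Tset_eq_convexHull (a : ℕ) : Tset (Fin a) = convexHull ℝ (Vert a) := by
  apply Set.Subset.antisymm
  · intro x hx
    -- `x = (1 - ∑ x) • 0 + ∑ i, x i • e i`
    let w : Option (Fin a) → ℝ := fun o => Option.elim o (1 - ∑ i, x i) (fun i => x i)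
    let z : Option (Fin a) → (Fin a → ℝ) :=
      fun o => Option.elim o 0 (fun i => (Pi.single i 1 : Fin a → ℝ))
    have hw0 : ∀ o ∈ (Finset.univ : Finset (Option (Fin a))), 0 ≤ w o := by
      intro o _
      cases o with
      | none => simpa [w] using hx.2
      | some i => simpa [w] using hx.1 i
    have hw1 : ∑ o ∈ (Finset.univ : Finset (Option (Fin a))), w o = 1 := by
      rw [Fintype.sum_option]
      simp [w]
    have hz : ∀ o ∈ (Finset.univ : Finset (Option (Fin a))), z o ∈ convexHull ℝ (Vert a) := by
      intro o _
      apply subset_convexHull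
      cases o with
      | none => exact Set.mem_insert _ _
      | some i => exact Set.mem_insert_of_mem _ ⟨i, rfl⟩
    have hmem := (convex_convexHull ℝ (Vert a)).sum_mem hw0 hw1 hz
    have hsum : ∑ o ∈ (Finset.univ : Finset (Option (Fin a))), w o • z o = x := by
      rw [Fintype.sum_option]
      ext j
      simp [w, z, Finset.sum_apply, Pi.single_apply]
    rw [hsum] at hmem
    exact hmem
  · apply convexHull_min _ (convex_Tset' a)
    intro v hv
    rcases hv with rfl | ⟨i, rfl⟩
    · exact ⟨fun i => le_rfl, by simp⟩
    · refine ⟨fun j => ?_, ?_⟩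
      · by_cases h : j = i
        · subst h; simp
        · simp [h]
      · simp [Pi.single_apply]

theorem interior_nonempty_of_volume_pos {n : ℕ} {s : Set (En n)} (hs : Convex ℝ s)
    (h : 0 < volume s) : (interior s).Nonempty := by
  by_contra hne
  rw [Set.not_nonempty_iff_eq_empty] at hne
  have hsub : s ⊆ frontier s := by
    intro x hx
    rw [frontier, hne, Set.sdiff_empty]
    exact subset_closure hx
  have h0 := hs.addHaar_frontier (volume : Measure (En n))
  exact absurd (measure_mono_null hsub h0) h.ne'

end Crest.Agent.Helper23.S0356
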