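/-
helper23 -- S0356 squad (track D), package PR: the Tonelli product lemma `sweepLB_prod`.
Imports only the squad's definitions.  Sorry-free.
-/
import Crest.Agent.Helper28.S0356.Defs

set_option autoImplicit false
open MeasureTheory
open scoped ENNReal

namespace Crest.Agent.Helper23.S0356

open Crest.Agent.Helper28.S0355 (sweep)
open Crest.Agent.Helper28.S0356

section aux

variable {V : Type*} [NormedAddCommGroup V] [NormedSpace ℝ V]

private theorem sweep_eq_image (C : Set V) (u : V) :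
    sweep C u = (fun p : ℝ × V => p.2 + p.1 • u) '' (Set.Icc (0 : ℝ) 1 ×ˢ C) := by
  ext x
  constructor
  · rintro ⟨t, ht, hx⟩
    exact ⟨(t, x - t • u), ⟨ht, hx⟩, by simp⟩
  · rintro ⟨⟨t, c⟩, ⟨ht, hc⟩, rfl⟩
    exact ⟨t, ht, by simpa using hc⟩

private theorem isCompact_sweep {C : Set V} (hC : IsCompact C) (u : V) :
    IsCompact (sweep C u) := by
  rw [sweep_eq_image]
  exact (isCompact_Icc.prod hC).image (by fun_prop)

end aux

/-- **Product lemma.**  If `vol (Kᵢ + [0,1]u) ≥ vol Kᵢ + Hᵢ u` for all `u` (`i = 1, 2`), `K₂` is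
convex and `H₁` is positively homogeneous, then
`vol (K₁ × K₂ + [0,1](u₁,u₂)) ≥ vol K₁ vol K₂ + vol K₂ · H₁ u₁ + vol K₁ · H₂ u₂`. -/
theorem sweepLB_prod {V₁ V₂ : Type*}
    [NormedAddCommGroup V₁] [NormedSpace ℝ V₁] [MeasureSpace V₁] [BorelSpace V₁]
    [SecondCountableTopology V₁] [SigmaFinite (volume : Measure V₁)]
    [(volume : Measure V₁).IsAddLeftInvariant] [IsFiniteMeasureOnCompacts (volume : Measure V₁)]
    [NormedAddCommGroup V₂] [NormedSpace ℝ V₂] [MeasureSpace V₂] [BorelSpace V₂]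
    [SecondCountableTopology V₂] [SigmaFinite (volume : Measure V₂)]
    [(volume : Measure V₂).IsAddLeftInvariant] [IsFiniteMeasureOnCompacts (volume : Measure V₂)]
    (K₁ : Set V₁) (K₂ : Set V₂) (H₁ : V₁ → ℝ) (H₂ : V₂ → ℝ)
    (hK₁ : IsCompact K₁) (hK₂ : IsCompact K₂) (hc₂ : Convex ℝ K₂)
    (h₁ : SweepLB K₁ H₁) (h₂ : SweepLB K₂ H₂)
    (hom₁ : ∀ s : ℝ, 0 ≤ s → ∀ u, H₁ (s • u) = s * H₁ u)
    (nn₁ : ∀ u, 0 ≤ H₁ u) (nn₂ : ∀ u, 0 ≤ H₂ u) :
    SweepLB (K₁ ×ˢ K₂)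
      (fun u : V₁ × V₂ => (volume K₂).toReal * H₁ u.1 + (volume K₁).toReal * H₂ u.2) := by
  intro u
  obtain ⟨u₁, u₂⟩ := u
  show volume (K₁ ×ˢ K₂) + ENNReal.ofReal ((volume K₂).toReal * H₁ u₁ + (volume K₁).toReal * H₂ u₂)
    ≤ volume (sweep (K₁ ×ˢ K₂) (u₁, u₂))
  have hScomp : IsCompact (sweep (K₁ ×ˢ K₂) (u₁, u₂)) := isCompact_sweep (hK₁.prod hK₂) _
  have hSmeas : MeasurableSet (sweep (K₁ ×ˢ K₂) (u₁, u₂)) := hScomp.measurableSet
  have hS₂meas : MeasurableSet (sweep K₂ u₂) := (isCompact_sweep hK₂ u₂).measurableSet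
  have hK₁top : volume K₁ ≠ ∞ := hK₁.measure_lt_top.ne
  have hK₂top : volume K₂ ≠ ∞ := hK₂.measure_lt_top.ne
  -- the set of pairs `(x₂, t)` with `t ∈ [0,1]`, `x₂ - t u₂ ∈ K₂`
  let Q : Set (V₂ × ℝ) := {p | p.2 ∈ Set.Icc (0 : ℝ) 1 ∧ p.1 - p.2 • u₂ ∈ K₂}
  have hQclosed : IsClosed Q := by
    apply IsClosed.inter
    · exact isClosed_Icc.preimage continuous_snd
    · exact hK₂.isClosed.preimage (by fun_prop)
  have hQmeas : MeasurableSet Q := hQclosed.measurableSet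
  have hQvol : ((volume : Measure V₂).prod (volume : Measure ℝ)) Q = volume K₂ := by
    rw [Measure.prod_apply_symm hQmeas]
    have hsl : ∀ t : ℝ, (volume : Measure V₂) ((fun x => (x, t)) ⁻¹' Q)
        = Set.indicator (Set.Icc (0 : ℝ) 1) (fun _ => volume K₂) t := by
      intro t
      by_cases ht : t ∈ Set.Icc (0 : ℝ) 1
      · rw [Set.indicator_of_mem ht]
        have hpre : (fun x : V₂ => (x, t)) ⁻¹' Q = (fun x : V₂ => -(t • u₂) + x) ⁻¹' K₂ := by
          ext x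
          show (t ∈ Set.Icc (0 : ℝ) 1 ∧ x - t • u₂ ∈ K₂) ↔ -(t • u₂) + x ∈ K₂
          rw [neg_add_eq_sub]
          exact and_iff_right ht
        rw [hpre, measure_preimage_add]
      · rw [Set.indicator_of_notMem ht]
        have hpre : (fun x : V₂ => (x, t)) ⁻¹' Q = ∅ := by
          ext x
          show (t ∈ Set.Icc (0 : ℝ) 1 ∧ x - t • u₂ ∈ K₂) ↔ x ∈ (∅ : Set V₂)
          simp [ht]
        rw [hpre, measure_empty]
    simp_rw [hsl]
    rw [lintegral_indicator_const measurableSet_Icc, Real.volume_Icc]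
    simp
  -- slices
  have hslice : ∀ x₂ : V₂,
      Set.indicator (sweep K₂ u₂) (fun _ => volume K₁) x₂
        + (volume : Measure ℝ) (Prod.mk x₂ ⁻¹' Q) * ENNReal.ofReal (H₁ u₁)
      ≤ (volume : Measure V₁) ((fun x₁ => (x₁, x₂)) ⁻¹' (sweep (K₁ ×ˢ K₂) (u₁, u₂))) := by
    intro x₂
    by_cases hJne : (Prod.mk x₂ ⁻¹' Q).Nonempty
    · have hJclosed : IsClosed (Prod.mk x₂ ⁻¹' Q) := hQclosed.preimage (by fun_prop)
      have hJcomp : IsCompact (Prod.mk x₂ ⁻¹' Q) :=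
        isCompact_Icc.of_isClosed_subset hJclosed (fun t ht => ht.1)
      have hJconv : Convex ℝ (Prod.mk x₂ ⁻¹' Q) := by
        intro t ht t' ht' a b ha hb hab
        refine ⟨convex_Icc (0 : ℝ) 1 ht.1 ht'.1 ha hb hab, ?_⟩
        have hmem := hc₂ ht.2 ht'.2 ha hb hab
        have key : x₂ - (a • t + b • t') • u₂ = a • (x₂ - t • u₂) + b • (x₂ - t' • u₂) := by
          have hx : x₂ = a • x₂ + b • x₂ := by rw [← add_smul, hab, one_smul]
          conv_lhs => rw [hx]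
          simp only [smul_sub, add_smul, smul_eq_mul, mul_smul]
          abel
        show x₂ - (a • t + b • t') • u₂ ∈ K₂
        rw [key]
        exact hmem
      have ha : sInf (Prod.mk x₂ ⁻¹' Q) ∈ Prod.mk x₂ ⁻¹' Q := hJcomp.sInf_mem hJne
      have hb : sSup (Prod.mk x₂ ⁻¹' Q) ∈ Prod.mk x₂ ⁻¹' Q := hJcomp.sSup_mem hJne
      set a := sInf (Prod.mk x₂ ⁻¹' Q) with ha_def
      set b := sSup (Prod.mk x₂ ⁻¹' Q) with hb_def
      have hab : a ≤ b := le_csSup hJcomp.bddAbove ha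
      have hJsub : Prod.mk x₂ ⁻¹' Q ⊆ Set.Icc a b :=
        fun t ht => ⟨csInf_le hJcomp.bddBelow ht, le_csSup hJcomp.bddAbove ht⟩
      have hIcc : Set.Icc a b ⊆ Prod.mk x₂ ⁻¹' Q := hJconv.ordConnected.out ha hb
      have hx₂ : x₂ ∈ sweep K₂ u₂ := ⟨a, ha.1, ha.2⟩
      have hvolJ : (volume : Measure ℝ) (Prod.mk x₂ ⁻¹' Q) ≤ ENNReal.ofReal (b - a) :=
        (measure_mono hJsub).trans (by rw [Real.volume_Icc])
      have hsub : (fun x₁ : V₁ => -(a • u₁) + x₁) ⁻¹' (sweep K₁ ((b - a) • u₁))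
          ⊆ (fun x₁ => (x₁, x₂)) ⁻¹' (sweep (K₁ ×ˢ K₂) (u₁, u₂)) := by
        intro x₁ hx₁
        obtain ⟨s, hs, hmem⟩ := hx₁
        have ht : a + s * (b - a) ∈ Prod.mk x₂ ⁻¹' Q :=
          hIcc ⟨by nlinarith [hs.1, hs.2], by nlinarith [hs.1, hs.2]⟩
        refine ⟨a + s * (b - a), ht.1, ?_, ht.2⟩
        show x₁ - (a + s * (b - a)) • u₁ ∈ K₁
        have key : x₁ - (a + s * (b - a)) • u₁ = -(a • u₁) + x₁ - s • (b - a) • u₁ := by
          simp only [add_smul, mul_smul]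
          abel
        rw [key]
        exact hmem
      calc Set.indicator (sweep K₂ u₂) (fun _ => volume K₁) x₂
            + (volume : Measure ℝ) (Prod.mk x₂ ⁻¹' Q) * ENNReal.ofReal (H₁ u₁)
          ≤ volume K₁ + ENNReal.ofReal (b - a) * ENNReal.ofReal (H₁ u₁) := by
            rw [Set.indicator_of_mem hx₂]
            gcongr
        _ = volume K₁ + ENNReal.ofReal (H₁ ((b - a) • u₁)) := by
            rw [hom₁ _ (sub_nonneg.2 hab), ENNReal.ofReal_mul (sub_nonneg.2 hab)]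
        _ ≤ volume (sweep K₁ ((b - a) • u₁)) := h₁ _
        _ = volume ((fun x₁ : V₁ => -(a • u₁) + x₁) ⁻¹' (sweep K₁ ((b - a) • u₁))) :=
            (measure_preimage_add _ _ _).symm
        _ ≤ _ := measure_mono hsub
    · have hJe : Prod.mk x₂ ⁻¹' Q = ∅ := Set.not_nonempty_iff_eq_empty.1 hJne
      have hx₂ : x₂ ∉ sweep K₂ u₂ := by
        rintro ⟨t, ht, hmem⟩
        exact hJne ⟨t, ht, hmem⟩
      rw [Set.indicator_of_notMem hx₂, hJe]
      simp
  -- integrate over `x₂`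
  calc volume (K₁ ×ˢ K₂)
        + ENNReal.ofReal ((volume K₂).toReal * H₁ u₁ + (volume K₁).toReal * H₂ u₂)
      = volume K₁ * (volume K₂ + ENNReal.ofReal (H₂ u₂)) + volume K₂ * ENNReal.ofReal (H₁ u₁) := by
        rw [Measure.volume_eq_prod, Measure.prod_prod,
          ENNReal.ofReal_add (mul_nonneg ENNReal.toReal_nonneg (nn₁ _))
            (mul_nonneg ENNReal.toReal_nonneg (nn₂ _)),
          ENNReal.ofReal_mul ENNReal.toReal_nonneg, ENNReal.ofReal_mul ENNReal.toReal_nonneg,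
          ENNReal.ofReal_toReal hK₁top, ENNReal.ofReal_toReal hK₂top]
        ring
    _ ≤ volume K₁ * volume (sweep K₂ u₂)
          + ((volume : Measure V₂).prod (volume : Measure ℝ)) Q * ENNReal.ofReal (H₁ u₁) := by
        rw [hQvol]
        gcongr
        exact h₂ u₂
    _ = ∫⁻ x₂, (Set.indicator (sweep K₂ u₂) (fun _ => volume K₁) x₂
          + (volume : Measure ℝ) (Prod.mk x₂ ⁻¹' Q) * ENNReal.ofReal (H₁ u₁)) := by
        rw [lintegral_add_left (measurable_const.indicator hS₂meas),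
          lintegral_indicator_const hS₂meas,
          lintegral_mul_const _ (measurable_measure_prodMk_left hQmeas),
          Measure.prod_apply hQmeas]
    _ ≤ ∫⁻ x₂, (volume : Measure V₁) ((fun x₁ => (x₁, x₂)) ⁻¹' (sweep (K₁ ×ˢ K₂) (u₁, u₂))) :=
        lintegral_mono hslice
    _ = volume (sweep (K₁ ×ˢ K₂) (u₁, u₂)) := by
        rw [Measure.volume_eq_prod, Measure.prod_apply_symm hSmeas]

end Crest.Agent.Helper23.S0356
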