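/-
helper23 -- S0356 squad (track D), package TR (hedge copy): transport to the model space.
Imports only the squad's definitions.  Sorry-free.
-/
import Crest.Agent.Helper28.S0356.Defs

set_option autoImplicit false
open MeasureTheory
open scoped ENNReal

namespace Crest.Agent.Helper23.S0356.TR

open Crest.Agent.Helper28.S0356

theorem volume_preserving_curry (ι κ : Type) [Fintype ι] [Fintype κ] :
    MeasurePreserving (MeasurableEquiv.curry ι κ ℝ) volume volume := by
  have h : MeasurePreserving (MeasurableEquiv.curry ι κ ℝ).symm volume volume := by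
    refine ⟨(MeasurableEquiv.curry ι κ ℝ).symm.measurable, ?_⟩
    symm
    refine Measure.pi_eq (fun s hs => ?_)
    rw [MeasurableEquiv.map_apply]
    have hpre : (MeasurableEquiv.curry ι κ ℝ).symm ⁻¹' (Set.pi Set.univ s)
        = Set.pi Set.univ (fun i => Set.pi Set.univ (fun j => s (i, j))) := by
      ext f
      simp only [Set.mem_preimage, Set.mem_pi, Set.mem_univ, forall_true_left,
        MeasurableEquiv.coe_curry_symm, Function.uncurry, Prod.forall]
    rw [hpre, volume_pi_pi]
    simp_rw [volume_pi_pi]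
    rw [Fintype.prod_prod_type]
  exact MeasurePreserving.symm _ h

/-- The index bijection `Fin (10 k + r) ≃ (Fin k × Fin 10) ⊕ (Fin r × Fin 1)`. -/
def idxEquiv (k r : ℕ) : Fin (10 * k + r) ≃ (Fin k × Fin 10) ⊕ (Fin r × Fin 1) :=
  (finSumFinEquiv.symm).trans
    (Equiv.sumCongr ((finCongr (Nat.mul_comm 10 k)).trans finProdFinEquiv.symm)
      (Equiv.prodUnique (Fin r) (Fin 1)).symm)

theorem exists_model (k r : ℕ) :
    ∃ Ψ : (Fin (10 * k + r) → ℝ) ≃ₗ[ℝ] Mod k r,
      MeasurePreserving (⇑Ψ) volume volume ∧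
        ∀ x u : Fin (10 * k + r) → ℝ, ∑ i, x i * u i = pairM (Ψ x) (Ψ u) := by
  let e := idxEquiv k r
  let Ψ : (Fin (10 * k + r) → ℝ) ≃ₗ[ℝ] Mod k r :=
    { toFun := fun x =>
        (fun j i => x (e.symm (Sum.inl (j, i))), fun j i => x (e.symm (Sum.inr (j, i))))
      map_add' := fun x y => rfl
      map_smul' := fun c x => rfl
      invFun := fun p i =>
        Sum.elim (fun q : Fin k × Fin 10 => p.1 q.1 q.2) (fun q : Fin r × Fin 1 => p.2 q.1 q.2)
          (e i)
      left_inv := fun x => by
        funext i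
        have h : ∀ s, Sum.elim (fun q : Fin k × Fin 10 => x (e.symm (Sum.inl (q.1, q.2))))
            (fun q : Fin r × Fin 1 => x (e.symm (Sum.inr (q.1, q.2)))) s = x (e.symm s) := by
          rintro (q | q) <;> rfl
        exact (h (e i)).trans (by rw [e.symm_apply_apply])
      right_inv := fun p => by
        refine Prod.ext ?_ ?_
        · funext j i
          simp
        · funext j i
          simp }
  refine ⟨Ψ, ?_, ?_⟩
  · have h1 := volume_measurePreserving_piCongrLeft
      (fun _ : (Fin k × Fin 10) ⊕ (Fin r × Fin 1) => ℝ) e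
    have h2 := volume_measurePreserving_sumPiEquivProdPi
      (fun _ : (Fin k × Fin 10) ⊕ (Fin r × Fin 1) => ℝ)
    have h3 := (volume_preserving_curry (Fin k) (Fin 10)).prod
      (volume_preserving_curry (Fin r) (Fin 1))
    have h := h3.comp (h2.comp h1)
    have hpcl : ∀ (x : Fin (10 * k + r) → ℝ) (s : (Fin k × Fin 10) ⊕ (Fin r × Fin 1)),
        MeasurableEquiv.piCongrLeft (fun _ : (Fin k × Fin 10) ⊕ (Fin r × Fin 1) => ℝ) e x s
          = x (e.symm s) := by
      intro x s
      have := MeasurableEquiv.piCongrLeft_apply_apply e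
        (β := fun _ : (Fin k × Fin 10) ⊕ (Fin r × Fin 1) => ℝ) x (e.symm s)
      simpa using this
    have hfun : (⇑Ψ : (Fin (10 * k + r) → ℝ) → Mod k r)
        = (Prod.map (MeasurableEquiv.curry (Fin k) (Fin 10) ℝ)
              (MeasurableEquiv.curry (Fin r) (Fin 1) ℝ)) ∘
            ((MeasurableEquiv.sumPiEquivProdPi
                (fun _ : (Fin k × Fin 10) ⊕ (Fin r × Fin 1) => ℝ)) ∘
              (MeasurableEquiv.piCongrLeft
                (fun _ : (Fin k × Fin 10) ⊕ (Fin r × Fin 1) => ℝ) e)) := by
      funext x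
      refine Prod.ext ?_ ?_
      · funext j i
        exact (hpcl x (Sum.inl (j, i))).symm
      · funext j i
        exact (hpcl x (Sum.inr (j, i))).symm
    rw [hfun]
    exact h
  · intro x u
    have hsum : ∑ i, x i * u i
        = ∑ s : (Fin k × Fin 10) ⊕ (Fin r × Fin 1), x (e.symm s) * u (e.symm s) :=
      (Equiv.sum_comp e.symm (fun i => x i * u i)).symm
    rw [hsum, Fintype.sum_sum_type, Fintype.sum_prod_type, Fintype.sum_prod_type]
    rfl

end Crest.Agent.Helper23.S0356.TR
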